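import Vale.Agent.P002.R2.H524.Loc
import Vale.Agent.P002.R2.H426.One

/-!
# P002: from local integrality to integrality along a family over a torus

`exists_int_family`: if a family `X₀ t` of representations over a torus, with entries Laurent
polynomials with algebraic coefficients, contains at every maximal ideal `P` of the ring of all
algebraic integers a point which is conjugate to a `P`-integral one, then there are `x` and `M`
such that all the points `u * x`, `u` a tuple of units congruent to `1` modulo `M`, have integral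
character.
-/


namespace Vale.Agent.P002.R2.H524

open Matrix Finset Vale.Agent.P002.R2.H426 Vale.Agent.P002.H2 Vale.Agent.P002.R2

/-- the numbers congruent to `1` modulo `D` -/
def nr (O : Subring ℂ) (D : ℂ) (hD : D ∈ O) : Submonoid ℂ where
  carrier := {z | ∃ o ∈ O, z = 1 + D * o}
  one_mem' := ⟨0, O.zero_mem, by ring⟩
  mul_mem' := by
    rintro x y ⟨a, ha, rfl⟩ ⟨b, hb, rfl⟩
    exact ⟨a + b + D * a * b, O.add_mem (O.add_mem ha hb) (O.mul_mem (O.mul_mem hD ha) hb), by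
      ring⟩

theorem mem_nr {O : Subring ℂ} {D : ℂ} (hD : D ∈ O) (h0 : D ≠ 0) {z : ℂ}
    (h : (z - 1) / D ∈ O) : z ∈ nr O D hD := ⟨_, h, by field_simp; ring⟩

theorem dens_fin {κ μ : Type*} [Fintype κ] (S : κ → Finset μ) (z : κ → μ → ℂ)
    (hz : ∀ k, ∀ m ∈ S k, IsAlgebraic ℚ (z k m)) :
    ∃ D : ℕ, 0 < D ∧ ∀ k, ∀ m ∈ S k, IsIntegral ℤ ((D : ℂ) * z k m) := by
  obtain ⟨D, hD, h⟩ := exists_dens (ι := Σ k, S k) (fun q => z q.1 q.2) fun q => hz q.1 q.2 q.2.2
  exact ⟨D, hD, fun k m hm => h ⟨k, m, hm⟩⟩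

variable {n : ℕ}

theorem tt_mul (a b : Fin n → ℂˣ) (k : Fin n ⊕ Fin n) :
    tt (fun i => a i * b i) k = tt a k * tt b k := by
  rcases k with i | i
  · simp [tt]
  · simp [tt, mul_comm]

/-- the value at a point close to `t` -/
theorem eval_near {O : Subring ℂ} {D : ℂ} (hD : D ∈ O) (p : MvPolynomial (Fin n ⊕ Fin n) ℂ)
    (t ρ : Fin n → ℂˣ) (hρ : ∀ k, tt ρ k ∈ nr O D hD)
    (hden : ∀ m ∈ p.support, D * (p.coeff m * ∏ k, tt t k ^ m k) ∈ O)
    (h0 : MvPolynomial.eval (tt t) p ∈ O) :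
    MvPolynomial.eval (tt fun i => ρ i * t i) p ∈ O := by
  rw [MvPolynomial.eval_eq'] at h0 ⊢
  have h1 : ∀ m : Fin n ⊕ Fin n →₀ ℕ, ∏ k, tt ρ k ^ m k ∈ nr O D hD := fun m =>
    Submonoid.prod_mem _ fun k _ => Submonoid.pow_mem _ (hρ k) _
  choose o ho h2 using h1
  have h3 : ∑ m ∈ p.support, p.coeff m * ∏ k, tt (fun i => ρ i * t i) k ^ m k =
      ∑ m ∈ p.support, p.coeff m * ∏ k, tt t k ^ m k +
        ∑ m ∈ p.support, D * (p.coeff m * ∏ k, tt t k ^ m k) * o m := by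
    rw [← Finset.sum_add_distrib]
    refine Finset.sum_congr rfl fun m _ => ?_
    have h4 : ∏ k, tt (fun i => ρ i * t i) k ^ m k =
        (∏ k, tt ρ k ^ m k) * ∏ k, tt t k ^ m k := by
      rw [← Finset.prod_mul_distrib]
      exact Finset.prod_congr rfl fun k _ => by rw [tt_mul, mul_pow]
    rw [h4, h2 m]
    ring
  rw [h3]
  exact O.add_mem h0 (O.sum_mem fun m hm => O.mul_mem (hden m hm) (ho m))

/-- the value at a point with coordinates in `O` -/
theorem aeval_mem {O : Subring ℂ} (p : MvPolynomial (Fin n ⊕ Fin n) Kb) (t : Fin n → ℂˣ)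
    (ht : ∀ k, tt t k ∈ O) (hp : ∀ m ∈ p.support, ((p.coeff m : Kb) : ℂ) ∈ O) :
    MvPolynomial.aeval (tt t) p ∈ O := by
  rw [MvPolynomial.aeval_def, MvPolynomial.eval₂_eq']
  exact O.sum_mem fun m hm => O.mul_mem (hp m hm) (O.prod_mem fun k _ => O.pow_mem (ht k) _)

theorem exists_int_family {ι : Type} [Finite ι] {r : ℕ}
    (A₀ : ι → Fin r → Fin r → MvPolynomial (Fin n ⊕ Fin n) Kb)
    (X₀ : (Fin n → ℂˣ) → ι → SpecialLinearGroup (Fin r) ℂ)
    (hA₀ : ∀ t p i j, (X₀ t p).1 i j = MvPolynomial.aeval (tt t) (A₀ p i j))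
    (hloc : ∀ P : Ideal (integralClosure ℤ ℂ), P.IsMaximal →
      ∃ (t : Fin n → ℂˣ) (g : SpecialLinearGroup (Fin r) ℂ),
        (∀ i, (t i : ℂ) ∈ algebraicClosure ℚ ℂ) ∧ (∀ i j, g.1 i j ∈ algebraicClosure ℚ ℂ) ∧
        ∀ p i j, IsIntegralAt P ((g * X₀ t p * g⁻¹).1 i j)) :
    ∃ (x : Fin n → ℂˣ) (M : ℕ), 0 < M ∧ (∀ i, (x i : ℂ) ∈ algebraicClosure ℚ ℂ) ∧
      ∀ u : Fin n → ℂˣ, (∀ i, IsIntegral ℤ ((u i : ℂ)) ∧ IsIntegral ℤ (((u i)⁻¹ : ℂˣ) : ℂ) ∧
        IsIntegral ℤ (((u i : ℂ) - 1) / M)) →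
      ∀ w : FreeGroup ι, IsIntegral ℤ (FreeGroup.lift (X₀ fun i => u i * x i) w).1.trace := by
  classical
  have := Fintype.ofFinite ι
  -- the local data with common denominators
  have hdat : ∀ P : {P : Ideal (integralClosure ℤ ℂ) // P.IsMaximal},
      ∃ (t : Fin n → ℂˣ) (g : SpecialLinearGroup (Fin r) ℂ) (N : integralClosure ℤ ℂ),
        N ∉ P.1 ∧ (∀ i, (t i : ℂ) ∈ algebraicClosure ℚ ℂ) ∧
        (∀ i j, g.1 i j ∈ algebraicClosure ℚ ℂ) ∧
        ∀ p i j, IsIntegral ℤ ((N : ℂ) * (g * X₀ t p * g⁻¹).1 i j) := by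
    rintro ⟨P, hP⟩
    obtain ⟨t, g, ht, hg, h⟩ := hloc P hP
    obtain ⟨N, hN, h1⟩ := common_den hP.isPrime
      (fun q : ι × Fin r × Fin r => (g * X₀ t q.1 * g⁻¹).1 q.2.1 q.2.2) fun q => h _ _ _
    exact ⟨t, g, N, hN, ht, hg, fun p i j => h1 (p, i, j)⟩
  choose t g N hN ht hg hint using hdat
  -- finitely many of them suffice
  have hspan : (1 : integralClosure ℤ ℂ) ∈ Ideal.span (Set.range N) := by
    by_contra hcon
    obtain ⟨P, hP, hle⟩ := Ideal.exists_le_maximal _ fun h =>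
      hcon ((Ideal.eq_top_iff_one _).1 h)
    exact hN ⟨P, hP⟩ (hle (Ideal.subset_span ⟨⟨P, hP⟩, rfl⟩))
  obtain ⟨c, hc⟩ := Finsupp.mem_span_range_iff_exists_finsupp.1 hspan
  set e : Fin c.support.card ≃ c.support := c.support.equivFin.symm with he
  have hcN : ∑ j, c (e j) * N (e j) = 1 := by
    rw [← hc, Finsupp.sum, ← Finset.sum_coe_sort c.support]
    exact Fintype.sum_equiv e _ _ fun j => rfl
  -- Laurent polynomials of the conjugated families
  choose A hA hAa using fun j => conj_fam A₀ X₀ hA₀ (g (e j)) (hg (e j))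
  have htta : ∀ (s : Fin n → ℂˣ), (∀ i, (s i : ℂ) ∈ algebraicClosure ℚ ℂ) →
      ∀ k, tt s k ∈ algebraicClosure ℚ ℂ := by
    intro s hs k
    rcases k with i | i
    · exact hs i
    · change (((s i)⁻¹ : ℂˣ) : ℂ) ∈ _
      rw [Units.val_inv_eq_inv_val]
      exact inv_mem (hs i)
  -- the denominators
  obtain ⟨D₁, hD₁, hD₁i⟩ := dens_fin
    (fun q : Fin c.support.card × ι × Fin r × Fin r => (A q.1 q.2.1 q.2.2.1 q.2.2.2).support)
    (fun q m => (A q.1 q.2.1 q.2.2.1 q.2.2.2).coeff m * ∏ k, tt (t (e q.1)) k ^ m k)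
    fun q m _ => mem_algebraicClosure_iff.1
      (mul_mem (hAa _ _ _ _ _) (prod_mem fun k _ => pow_mem (htta _ (ht _) k) _))
  obtain ⟨D₂, hD₂, hD₂i⟩ := dens_fin
    (fun q : ι × Fin r × Fin r => (A₀ q.1 q.2.1 q.2.2).support)
    (fun q m => (((A₀ q.1 q.2.1 q.2.2).coeff m : Kb) : ℂ))
    fun q m _ => mem_algebraicClosure_iff.1 (SetLike.coe_mem _)
  set D : ℕ := D₁ * D₂ with hD
  have hD0 : 0 < D := Nat.mul_pos hD₁ hD₂
  have hDc : (D : ℂ) ≠ 0 := by exact_mod_cast hD0.ne'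
  obtain ⟨x, k, hx, hnear⟩ := exists_near_family (fun j i => (t (e j) i : ℂ))
    (fun j i => (t (e j) i).ne_zero) (fun j i => mem_algebraicClosure_iff.1 (ht _ i))
    (fun j => N (e j)) (fun j => c (e j)) hcN D hD0 1
  have hxa : ∀ i, x i ∈ algebraicClosure ℚ ℂ := by
    intro i
    have h1 : IsAlgebraic ℚ ((D : ℂ) ^ k * x i) :=
      ((hx i).2.1.tower_top (A := ℚ)).isAlgebraic
    have h2 : (D : ℂ) ^ k * x i ∈ algebraicClosure ℚ ℂ := mem_algebraicClosure_iff.2 h1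
    have h3 : x i = ((D : ℂ) ^ k)⁻¹ * ((D : ℂ) ^ k * x i) := by
      field_simp
    rw [h3]
    exact mul_mem (inv_mem (pow_mem (natCast_mem _ _) _)) h2
  refine ⟨fun i => Units.mk0 (x i) (hx i).1, D, hD0, hxa, fun u hu w => ?_⟩
  refine isIntegral_of_loc fun P hP => ?_
  have hP' := hP.isPrime
  rw [← mem_loc (hP := hP')]
  by_cases hDP : (D : integralClosure ℤ ℂ) ∈ P
  · obtain ⟨j, hNj, a, ha, hax⟩ := hnear P hP hDP
    rw [← trace_conj _ (g (e j))]
    refine trace_mem _ _ (fun p i i' => ?_) w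
    have hDm : (D : ℂ) ∈ loc P hP' := mem_loc_of_int hP' (natInt D)
    -- the ratio
    set ρ : Fin n → ℂˣ := fun i => u i * Units.mk0 (x i) (hx i).1 * (t (e j) i)⁻¹ with hρ
    have hfam : (fun i => u i * Units.mk0 (x i) (hx i).1) = fun i => ρ i * t (e j) i := by
      funext i
      rw [hρ]
      simp
    rw [hfam, hA j]
    have hu1 : ∀ i, (u i : ℂ) ∈ nr (loc P hP') D hDm := fun i =>
      mem_nr hDm hDc (mem_loc_of_int hP' (hu i).2.2)
    have hu2 : ∀ i, (((u i)⁻¹ : ℂˣ) : ℂ) ∈ nr (loc P hP') D hDm := fun i => by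
      refine mem_nr hDm hDc ?_
      have h1 : ((((u i)⁻¹ : ℂˣ) : ℂ) - 1) / D =
          -((((u i)⁻¹ : ℂˣ) : ℂ) * (((u i : ℂ) - 1) / D)) := by
        rw [Units.val_inv_eq_inv_val]
        have := (u i).ne_zero
        field_simp
        ring
      rw [h1]
      exact (loc P hP').neg_mem ((loc P hP').mul_mem (mem_loc_of_int hP' (hu i).2.1)
        (mem_loc_of_int hP' (hu i).2.2))
    have hx1 : ∀ i, x i / (t (e j) i : ℂ) ∈ nr (loc P hP') D hDm := fun i => by
      refine mem_nr hDm hDc ⟨a, ha, ?_⟩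
      have := (hax i).1
      rwa [pow_one, mul_div_assoc] at this
    have hx2 : ∀ i, (t (e j) i : ℂ) / x i ∈ nr (loc P hP') D hDm := fun i => by
      refine mem_nr hDm hDc ⟨a, ha, ?_⟩
      have := (hax i).2
      rwa [pow_one, mul_div_assoc] at this
    refine eval_near hDm _ _ _ (fun k => ?_) (fun m hm => ?_) ?_
    · rcases k with i | i
      · have h1 : tt ρ (Sum.inl i) = (u i : ℂ) * (x i / (t (e j) i : ℂ)) := by
          simp [tt, hρ, div_eq_mul_inv, mul_assoc]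
        rw [h1]
        exact Submonoid.mul_mem _ (hu1 i) (hx1 i)
      · have h1 : tt ρ (Sum.inr i) = (((u i)⁻¹ : ℂˣ) : ℂ) * ((t (e j) i : ℂ) / x i) := by
          simp [tt, hρ, div_eq_mul_inv]
          ring
        rw [h1]
        exact Submonoid.mul_mem _ (hu2 i) (hx2 i)
    · have h1 := hD₁i (j, p, i, i') m hm
      have h2 : (D : ℂ) * ((A j p i i').coeff m * ∏ k, tt (t (e j)) k ^ m k) =
          (D₂ : ℂ) * ((D₁ : ℂ) * ((A j p i i').coeff m * ∏ k, tt (t (e j)) k ^ m k)) := by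
        rw [hD]
        push_cast
        ring
      rw [h2]
      exact (loc P hP').mul_mem (mem_loc_of_int hP' (natInt D₂)) (mem_loc_of_int hP' h1)
    · rw [← hA j]
      exact ⟨N (e j), hNj, hint (e j) p i i'⟩
  · refine trace_mem _ _ (fun p i i' => ?_) w
    rw [hA₀]
    refine aeval_mem _ _ (fun q => ?_) fun m hm => ?_
    · rcases q with i | i
      · have h1 : tt (fun i => u i * Units.mk0 (x i) (hx i).1) (Sum.inl i) = (u i : ℂ) * x i := by
          simp [tt]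
        rw [h1]
        exact (loc P hP').mul_mem (mem_loc_of_int hP' (hu i).1) (mem_loc_of_pow hP' hDP (hx i).2.1)
      · have h1 : tt (fun i => u i * Units.mk0 (x i) (hx i).1) (Sum.inr i) =
            (((u i)⁻¹ : ℂˣ) : ℂ) * (x i)⁻¹ := by
          simp [tt, mul_comm]
        rw [h1]
        exact (loc P hP').mul_mem (mem_loc_of_int hP' (hu i).2.1)
          (mem_loc_of_pow hP' hDP (hx i).2.2)
    · have h1 := hD₂i (p, i, i') m hm
      refine mem_loc_of_pow hP' hDP (k := 1) ?_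
      rw [pow_one, hD]
      push_cast
      have h2 : (D₁ : ℂ) * D₂ * (((A₀ p i i').coeff m : Kb) : ℂ) =
          (D₁ : ℂ) * (D₂ * (((A₀ p i i').coeff m : Kb) : ℂ)) := by ring
      rw [h2]
      exact (natInt D₁).mul h1

end Vale.Agent.P002.R2.H524
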