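import Vale.Agent.P002.R2.H524.Near2
import Vale.Agent.P002.R2.H426.Defs

/-!
# P002: the localization of the ring of all algebraic integers at a prime
-/

namespace Vale.Agent.P002.R2.H524

open Matrix Finset Vale.Agent.P002.R2

/-- The localization of the ring of all algebraic integers at the prime `P`, in `ℂ`. -/
def loc (P : Ideal (integralClosure ℤ ℂ)) (hP : P.IsPrime) : Subring ℂ where
  carrier := {z | IsIntegralAt P z}
  mul_mem' := by
    rintro x y ⟨b, hb, hbx⟩ ⟨c, hc, hcy⟩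
    refine ⟨b * c, fun h => (hP.mem_or_mem h).elim hb hc, ?_⟩
    have h1 : ((b * c : integralClosure ℤ ℂ) : ℂ) * (x * y) = (b * x) * (c * y) := by
      rw [MulMemClass.coe_mul]
      ring
    rw [h1]
    exact hbx.mul hcy
  one_mem' := ⟨1, fun h => hP.ne_top ((Ideal.eq_top_iff_one P).2 h), by
    rw [mul_one]
    exact (1 : integralClosure ℤ ℂ).2⟩
  add_mem' := by
    rintro x y ⟨b, hb, hbx⟩ ⟨c, hc, hcy⟩
    refine ⟨b * c, fun h => (hP.mem_or_mem h).elim hb hc, ?_⟩
    have h1 : ((b * c : integralClosure ℤ ℂ) : ℂ) * (x + y) = c * (b * x) + b * (c * y) := by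
      rw [MulMemClass.coe_mul]
      ring
    rw [h1]
    exact (IsIntegral.mul c.2 hbx).add (IsIntegral.mul b.2 hcy)
  zero_mem' := ⟨1, fun h => hP.ne_top ((Ideal.eq_top_iff_one P).2 h), by
    rw [mul_zero]
    exact isIntegral_zero⟩
  neg_mem' := by
    rintro x ⟨b, hb, hbx⟩
    exact ⟨b, hb, by rw [mul_neg]; exact hbx.neg⟩

theorem mem_loc {P : Ideal (integralClosure ℤ ℂ)} {hP : P.IsPrime} {z : ℂ} :
    z ∈ loc P hP ↔ IsIntegralAt P z := Iff.rfl

theorem mem_loc_of_int {P : Ideal (integralClosure ℤ ℂ)} (hP : P.IsPrime) {z : ℂ}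
    (hz : IsIntegral ℤ z) : z ∈ loc P hP :=
  ⟨1, fun h => hP.ne_top ((Ideal.eq_top_iff_one P).2 h), by
    rw [OneMemClass.coe_one, one_mul]
    exact hz⟩

theorem mem_loc_of_pow {P : Ideal (integralClosure ℤ ℂ)} (hP : P.IsPrime) {z : ℂ} {D : ℕ}
    (hD : (D : integralClosure ℤ ℂ) ∉ P) {k : ℕ} (hz : IsIntegral ℤ ((D : ℂ) ^ k * z)) :
    z ∈ loc P hP := by
  refine ⟨(D : integralClosure ℤ ℂ) ^ k, fun h => hD (hP.mem_of_pow_mem k h), ?_⟩
  have h1 : (((D : integralClosure ℤ ℂ) ^ k : integralClosure ℤ ℂ) : ℂ) = (D : ℂ) ^ k := by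
    push_cast
    rfl
  rw [h1]
  exact hz

/-- a number which is integral at every maximal ideal is integral -/
theorem isIntegral_of_loc {z : ℂ}
    (h : ∀ P : Ideal (integralClosure ℤ ℂ), P.IsMaximal → IsIntegralAt P z) : IsIntegral ℤ z := by
  let J : Ideal (integralClosure ℤ ℂ) :=
    { carrier := {b | IsIntegral ℤ ((b : ℂ) * z)}
      add_mem' := by
        intro a b ha hb
        change IsIntegral ℤ (((a + b : integralClosure ℤ ℂ) : ℂ) * z)
        rw [AddMemClass.coe_add, add_mul]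
        exact IsIntegral.add ha hb
      zero_mem' := by
        change IsIntegral ℤ (((0 : integralClosure ℤ ℂ) : ℂ) * z)
        rw [ZeroMemClass.coe_zero, zero_mul]
        exact isIntegral_zero
      smul_mem' := by
        intro c b hb
        change IsIntegral ℤ (((c * b : integralClosure ℤ ℂ) : ℂ) * z)
        rw [MulMemClass.coe_mul, mul_assoc]
        exact IsIntegral.mul c.2 hb }
  by_cases hJ : J = ⊤
  · have h1 : (1 : integralClosure ℤ ℂ) ∈ J := hJ ▸ Submodule.mem_top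
    have h2 : IsIntegral ℤ (((1 : integralClosure ℤ ℂ) : ℂ) * z) := h1
    rwa [OneMemClass.coe_one, one_mul] at h2
  · obtain ⟨P, hP, hJP⟩ := Ideal.exists_le_maximal J hJ
    obtain ⟨b, hb, hbz⟩ := h P hP
    exact absurd (hJP hbz) hb

/-- the trace of a word in matrices with entries in a subring is in the subring -/
theorem trace_mem {ι : Type} {r : ℕ} (O : Subring ℂ) (X : ι → SpecialLinearGroup (Fin r) ℂ)
    (hX : ∀ p i j, (X p).1 i j ∈ O) (w : FreeGroup ι) : (FreeGroup.lift X w).1.trace ∈ O := by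
  have hY : ∀ p, ∃ Y : SpecialLinearGroup (Fin r) O, SpecialLinearGroup.map O.subtype Y = X p := by
    intro p
    refine ⟨⟨Matrix.of fun i j => (⟨(X p).1 i j, hX p i j⟩ : O), ?_⟩, ?_⟩
    · apply Subtype.ext
      have h1 := (X p).2
      have h2 := RingHom.map_det O.subtype (Matrix.of fun i j => (⟨(X p).1 i j, hX p i j⟩ : O))
      have h3 : O.subtype.mapMatrix (Matrix.of fun i j => (⟨(X p).1 i j, hX p i j⟩ : O)) =
          (X p).1 := by
        ext i j
        rfl
      rw [h3, h1] at h2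
      exact h2
    · ext i j
      rfl
  choose Y hY using hY
  have h1 : FreeGroup.lift X = (SpecialLinearGroup.map O.subtype).comp (FreeGroup.lift Y) := by
    ext1 p
    simp [hY]
  rw [h1, MonoidHom.comp_apply]
  have h2 : (SpecialLinearGroup.map O.subtype (FreeGroup.lift Y w)).1.trace =
      O.subtype ((FreeGroup.lift Y w).1.trace) := by
    rw [Matrix.trace, Matrix.trace, map_sum]
    rfl
  rw [h2]
  exact SetLike.coe_mem _

theorem trace_conj {ι : Type} {r : ℕ} (X : ι → SpecialLinearGroup (Fin r) ℂ)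
    (g : SpecialLinearGroup (Fin r) ℂ) (w : FreeGroup ι) :
    (FreeGroup.lift (fun p => g * X p * g⁻¹) w).1.trace = (FreeGroup.lift X w).1.trace := by
  have h1 : FreeGroup.lift (fun p => g * X p * g⁻¹) =
      (MulAut.conj g).toMonoidHom.comp (FreeGroup.lift X) := by
    ext1 p
    simp
  rw [h1, MonoidHom.comp_apply]
  have h2 : ((MulAut.conj g).toMonoidHom (FreeGroup.lift X w)).1 =
      g.1 * (FreeGroup.lift X w).1 * (g⁻¹).1 := rfl
  rw [h2, Matrix.trace_mul_comm, ← mul_assoc]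
  have h3 : (g⁻¹).1 * g.1 = 1 := congrArg Subtype.val (inv_mul_cancel g)
  rw [h3, one_mul]

theorem common_den {P : Ideal (integralClosure ℤ ℂ)} (hP : P.IsPrime) {κ : Type*} [Fintype κ]
    (z : κ → ℂ) (h : ∀ k, IsIntegralAt P (z k)) :
    ∃ b : integralClosure ℤ ℂ, b ∉ P ∧ ∀ k, IsIntegral ℤ ((b : ℂ) * z k) := by
  classical
  choose b hb hbz using h
  refine ⟨∏ k, b k, fun h => ?_, fun k => ?_⟩
  · obtain ⟨k, -, hk⟩ := (hP.prod_mem_iff).1 h
    exact hb k hk
  · rw [← Finset.mul_prod_erase _ _ (Finset.mem_univ k), MulMemClass.coe_mul]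
    have h1 : (b k : ℂ) * ((∏ l ∈ univ.erase k, b l : integralClosure ℤ ℂ) : ℂ) * z k =
        ((∏ l ∈ univ.erase k, b l : integralClosure ℤ ℂ) : ℂ) * (b k * z k) := by ring
    rw [h1]
    exact IsIntegral.mul (∏ l ∈ univ.erase k, b l : integralClosure ℤ ℂ).2 (hbz k)

end Vale.Agent.P002.R2.H524
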