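import Mathlib.RingTheory.Algebraic.Integral
import Mathlib.RingTheory.IntegralClosure.IsIntegralClosure.Basic
import Mathlib.GroupTheory.FiniteAbelian.Basic
import Mathlib.Analysis.Complex.Basic
import Mathlib.RingTheory.Ideal.Maximal
import Mathlib.Tactic

/-!
# P002: simultaneous approximation of finitely many algebraic vectors at the places above `D`
-/

open Finset

namespace Vale.Agent.P002.R2.H524

/-- a power of an integral element is idempotent modulo `M` -/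
theorem pow_idem {R : Type*} [CommRing R] {a : R} (ha : IsIntegral ℤ a) {M : ℕ} (hM : 0 < M) :
    ∃ k : ℕ, 0 < k ∧ (M : R) ∣ a ^ k * (1 - a ^ k) := by
  have hfin : Module.Finite ℤ (Algebra.adjoin ℤ {a}) :=
    Algebra.finite_adjoin_simple_of_isIntegral ha
  let x : Algebra.adjoin ℤ {a} := ⟨a, Algebra.self_mem_adjoin_singleton ℤ a⟩
  let I : Ideal (Algebra.adjoin ℤ {a}) := Ideal.span {(M : Algebra.adjoin ℤ {a})}
  have hQ : Finite (Algebra.adjoin ℤ {a} ⧸ I) := by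
    have : Module.Finite ℤ (Algebra.adjoin ℤ {a} ⧸ I) :=
      Module.Finite.of_surjective ((Ideal.Quotient.mkₐ ℤ I).toLinearMap)
        (Ideal.Quotient.mkₐ_surjective ℤ I)
    apply Module.finite_of_fg_torsion
    intro y
    refine ⟨⟨(M : ℤ), mem_nonZeroDivisors_of_ne_zero (by positivity)⟩, ?_⟩
    obtain ⟨z, rfl⟩ := Ideal.Quotient.mk_surjective y
    have h1 : (M : ℤ) • (Ideal.Quotient.mk I z) = Ideal.Quotient.mk I ((M : Algebra.adjoin ℤ {a}) * z) := by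
      rw [map_mul, map_natCast, zsmul_eq_mul]
      push_cast
      rfl
    change (M : ℤ) • (Ideal.Quotient.mk I z) = 0
    rw [h1]
    exact Ideal.Quotient.eq_zero_iff_mem.2 (Ideal.mul_mem_right _ _ (Ideal.subset_span rfl))
  obtain ⟨i, j, hij, he⟩ := Finite.exists_ne_map_eq_of_infinite
    (fun n : ℕ => (Ideal.Quotient.mk I x) ^ n)
  -- periodicity modulo `M` in `R`
  have key : ∀ i j : ℕ, (Ideal.Quotient.mk I x) ^ i = (Ideal.Quotient.mk I x) ^ j →
      (M : R) ∣ a ^ i - a ^ j := by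
    intro i j h
    rw [← map_pow, ← map_pow, Ideal.Quotient.eq, Ideal.mem_span_singleton] at h
    obtain ⟨w, hw⟩ := h
    refine ⟨(w : R), ?_⟩
    have := congrArg (fun t : Algebra.adjoin ℤ {a} => (t : R)) hw
    simpa [x] using this
  wlog hlt : i < j generalizing i j
  · exact this j i hij.symm he.symm (lt_of_le_of_ne (not_lt.1 hlt) hij.symm)
  set X := Ideal.Quotient.mk I x with hX
  set p := j - i with hp
  have hp0 : 0 < p := by omega
  have h0 : X ^ (i + p) = X ^ i := by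
    have : i + p = j := by omega
    rw [this]
    exact he.symm
  have h1 : ∀ n, i ≤ n → X ^ (n + p) = X ^ n := by
    intro n hn
    obtain ⟨m, rfl⟩ := Nat.exists_eq_add_of_le hn
    rw [show i + m + p = (i + p) + m by ring, pow_add, h0, ← pow_add]
  have h2 : ∀ t n, i ≤ n → X ^ (n + t * p) = X ^ n := by
    intro t
    induction t with
    | zero => intro n _; simp
    | succ t ih =>
      intro n hn
      rw [show n + (t + 1) * p = (n + t * p) + p by ring, h1 _ (by omega), ih n hn]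
  have hk : i ≤ (i + 1) * p := by nlinarith
  refine ⟨(i + 1) * p, by positivity, ?_⟩
  have h3 := key ((i + 1) * p) ((i + 1) * p + (i + 1) * p) (h2 (i + 1) _ hk).symm
  have h4 : a ^ ((i + 1) * p) * (1 - a ^ ((i + 1) * p)) =
      a ^ ((i + 1) * p) - a ^ ((i + 1) * p + (i + 1) * p) := by
    rw [pow_add]; ring
  rw [h4]
  exact h3

/-- orthogonal idempotents modulo `M` below given elements generating the unit ideal -/
theorem exists_idem {R : Type*} [CommRing R] [Algebra.IsIntegral ℤ R] {q : ℕ} (N c : Fin q → R)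
    (h : ∑ j, c j * N j = 1) {M : ℕ} (hM : 0 < M) :
    ∃ e : Fin q → R, (∀ j, N j ∣ e j) ∧ (∀ j l, j ≠ l → (M : R) ∣ e j * e l) ∧
      (M : R) ∣ ∑ j, e j - 1 := by
  choose k hk hkM using fun j => pow_idem (a := N j) (Algebra.IsIntegral.isIntegral _) hM
  set E : Fin q → R := fun j => N j ^ k j with hE
  have hspan : (1 : R) ∈ Ideal.span (Set.range E) := by
    by_contra hcon
    have hne : Ideal.span (Set.range E) ≠ ⊤ := by
      intro ht
      exact hcon (ht ▸ Submodule.mem_top)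
    obtain ⟨P, hP, hle⟩ := Ideal.exists_le_maximal _ hne
    have hN : ∀ j, N j ∈ P := fun j =>
      hP.isPrime.mem_of_pow_mem _ (hle (Ideal.subset_span ⟨j, rfl⟩))
    have h1 : (1 : R) ∈ P := by
      rw [← h]
      exact Ideal.sum_mem _ fun j _ => Ideal.mul_mem_left _ _ (hN j)
    exact hP.ne_top ((Ideal.eq_top_iff_one _).2 h1)
  obtain ⟨d, hd⟩ := Ideal.mem_span_range_iff_exists_fun.1 hspan
  have hprod : (M : R) ∣ ∏ l, (1 - E l) := by
    have h1 : ∏ l, (1 - E l) = ∑ j, d j * (E j * ∏ l, (1 - E l)) := by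
      calc ∏ l, (1 - E l) = (∑ j, d j * E j) * ∏ l, (1 - E l) := by rw [hd, one_mul]
        _ = _ := by rw [Finset.sum_mul]; exact Finset.sum_congr rfl fun _ _ => mul_assoc _ _ _
    rw [h1]
    refine Finset.dvd_sum fun j _ => dvd_mul_of_dvd_right ?_ _
    rw [← Finset.mul_prod_erase _ _ (Finset.mem_univ j), ← mul_assoc]
    exact dvd_mul_of_dvd_left (hkM j) _
  refine ⟨fun j => E j * ∏ l ∈ univ with l < j, (1 - E l), ?_, ?_, ?_⟩
  · intro j
    exact dvd_mul_of_dvd_left (dvd_pow_self _ (hk j).ne') _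
  · have hlt : ∀ j l : Fin q, j < l → (M : R) ∣ (E j * ∏ i ∈ univ with i < j, (1 - E i)) *
        (E l * ∏ i ∈ univ with i < l, (1 - E i)) := by
      intro j l hjl
      rw [← Finset.mul_prod_erase (univ.filter (· < l)) _ (by simpa using hjl :
        j ∈ univ.filter (· < l))]
      have : E j * (∏ i ∈ univ with i < j, (1 - E i)) *
          (E l * ((1 - E j) * ∏ i ∈ (univ.filter (· < l)).erase j, (1 - E i))) =
          (E j * (1 - E j)) * ((∏ i ∈ univ with i < j, (1 - E i)) *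
            (E l * ∏ i ∈ (univ.filter (· < l)).erase j, (1 - E i))) := by ring
      rw [this]
      exact dvd_mul_of_dvd_left (hkM j) _
    intro j l hjl
    rcases lt_or_gt_of_ne hjl with h1 | h1
    · exact hlt j l h1
    · rw [mul_comm]
      exact hlt l j h1
  · have h1 := Finset.prod_one_sub_ordered univ E
    have h2 : ∑ j, E j * ∏ l ∈ univ with l < j, (1 - E l) - 1 = - ∏ l, (1 - E l) := by
      rw [h1]; ring
    rw [h2]
    exact (dvd_neg).2 hprod

theorem idem_sub {R : Type*} [CommRing R] {q : ℕ} {e : Fin q → R} {M : R}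
    (h1 : ∀ j l, j ≠ l → M ∣ e j * e l) (h2 : M ∣ ∑ j, e j - 1) (j : Fin q) :
    M ∣ e j * (e j - 1) := by
  have h3 : e j * (e j - 1) = e j * (∑ l, e l - 1) - ∑ l ∈ univ.erase j, e j * e l := by
    rw [← Finset.mul_sum, ← Finset.add_sum_erase _ _ (Finset.mem_univ j)]
    ring
  rw [h3]
  refine dvd_sub (dvd_mul_of_dvd_right h2 _) (Finset.dvd_sum fun l hl => ?_)
  exact h1 j l (Finset.ne_of_mem_erase hl).symm

theorem nat_split (D : ℕ) : ∀ c : ℕ, 0 < c →
    ∃ s c1 c2 : ℕ, c = c1 * c2 ∧ c1 ∣ D ^ s ∧ Nat.Coprime c2 D := by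
  intro c
  induction c using Nat.strong_induction_on with
  | _ c ih =>
    intro hc
    by_cases hg : Nat.Coprime c D
    · exact ⟨0, 1, c, by simp, by simp, hg⟩
    · have hg1 : 1 < Nat.gcd c D := by
        have h0 : 0 < Nat.gcd c D := Nat.gcd_pos_of_pos_left _ hc
        have h1 : Nat.gcd c D ≠ 1 := hg
        omega
      obtain ⟨c', hc'⟩ := Nat.gcd_dvd_left c D
      have hc'0 : 0 < c' := by
        rcases Nat.eq_zero_or_pos c' with h | h
        · rw [h, mul_zero] at hc'; omega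
        · exact h
      have hlt : c' < c := by
        calc c' < Nat.gcd c D * c' := by nlinarith
          _ = c := hc'.symm
      obtain ⟨s, c1, c2, h1, h2, h3⟩ := ih c' hlt hc'0
      refine ⟨s + 1, Nat.gcd c D * c1, c2, ?_, ?_, h3⟩
      · rw [mul_assoc, ← h1]; exact hc'
      · rw [pow_succ, mul_comm (D ^ s)]
        exact mul_dvd_mul (Nat.gcd_dvd_right c D) h2

theorem exists_den {z : ℂ} (hz : IsAlgebraic ℚ z) : ∃ c : ℕ, 0 < c ∧ IsIntegral ℤ ((c : ℂ) * z) := by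
  have h1 : IsAlgebraic ℤ z := (IsFractionRing.isAlgebraic_iff ℤ ℚ ℂ).2 hz
  obtain ⟨y, hy, h2⟩ := h1.exists_integral_multiple
  refine ⟨y.natAbs, Int.natAbs_pos.2 hy, ?_⟩
  rw [zsmul_eq_mul] at h2
  rcases Int.natAbs_eq y with h | h
  · rw [h] at h2
    simpa using h2
  · rw [h] at h2
    have := h2.neg
    simpa using this

theorem exists_dens {ι : Type*} [Fintype ι] (z : ι → ℂ) (hz : ∀ i, IsAlgebraic ℚ (z i)) :
    ∃ c : ℕ, 0 < c ∧ ∀ i, IsIntegral ℤ ((c : ℂ) * z i) := by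
  choose c hc h using fun i => exists_den (hz i)
  refine ⟨∏ i, c i, Finset.prod_pos fun i _ => hc i, fun i => ?_⟩
  classical
  rw [← Finset.mul_prod_erase _ _ (Finset.mem_univ i)]
  push_cast
  have h1 : (c i : ℂ) * (∏ l ∈ univ.erase i, (c l : ℂ)) * z i =
      (∏ l ∈ univ.erase i, (c l : ℂ)) * ((c i : ℂ) * z i) := by ring
  rw [h1]
  refine IsIntegral.mul ?_ (h i)
  exact IsIntegral.prod _ fun l _ => by
    have : IsIntegral ℤ (algebraMap ℤ ℂ (c l : ℤ)) := isIntegral_algebraMap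
    simpa using this

/-- statement (S) -/
def NearS : Prop := ∀ (b : ℂ), IsAlgebraic ℚ b → b ≠ 0 → ∀ (D : ℕ), 0 < D → ∀ m : ℕ,
    ∃ (x a : ℂ) (k : ℕ), x ≠ 0 ∧ IsIntegral ℤ ((D:ℂ)^k * x) ∧ IsIntegral ℤ ((D:ℂ)^k * x⁻¹) ∧
      IsIntegral ℤ a ∧ (∃ u v : ℂ, IsIntegral ℤ u ∧ IsIntegral ℤ v ∧ u * a + v * D = 1) ∧
      IsIntegral ℤ (a * (x / b - 1) / (D:ℂ)^m) ∧ IsIntegral ℤ (a * (b / x - 1) / (D:ℂ)^m)

theorem natInt (c : ℕ) : IsIntegral ℤ (c : ℂ) := by
  have : IsIntegral ℤ (algebraMap ℤ ℂ (c : ℤ)) := isIntegral_algebraMap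
  simpa using this

theorem exists_near_family_of (hS : NearS) {q n : ℕ} (t : Fin q → Fin n → ℂ)
    (ht : ∀ j i, t j i ≠ 0) (hta : ∀ j i, IsAlgebraic ℚ (t j i))
    (N c : Fin q → integralClosure ℤ ℂ) (hcN : ∑ j, c j * N j = 1)
    (D : ℕ) (hD : 0 < D) (m : ℕ) :
    ∃ (x : Fin n → ℂ) (k : ℕ),
      (∀ i, x i ≠ 0 ∧ IsIntegral ℤ ((D:ℂ)^k * x i) ∧ IsIntegral ℤ ((D:ℂ)^k * (x i)⁻¹)) ∧
      ∀ P : Ideal (integralClosure ℤ ℂ), P.IsMaximal → (D : integralClosure ℤ ℂ) ∈ P →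
        ∃ j : Fin q, N j ∉ P ∧ ∃ a : integralClosure ℤ ℂ, a ∉ P ∧
          ∀ i, IsIntegral ℤ ((a:ℂ) * (x i / t j i - 1) / (D:ℂ)^m) ∧
            IsIntegral ℤ ((a:ℂ) * (t j i / x i - 1) / (D:ℂ)^m) := by
  classical
  -- common denominator
  obtain ⟨c0, hc0, hden⟩ := exists_dens (fun p : (Fin q × Fin n) × Bool =>
    if p.2 then t p.1.1 p.1.2 else (t p.1.1 p.1.2)⁻¹) (by
      rintro ⟨⟨j, i⟩, b⟩
      cases b
      · simpa using (hta j i).inv
      · simpa using hta j i)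
  have hd1 : ∀ j i, IsIntegral ℤ ((c0 : ℂ) * t j i) := fun j i => by
    simpa using hden ((j, i), true)
  have hd2 : ∀ j i, IsIntegral ℤ ((c0 : ℂ) * (t j i)⁻¹) := fun j i => by
    simpa using hden ((j, i), false)
  obtain ⟨s, c1, c2, hc, ⟨c1', hc1⟩, hc2⟩ := nat_split D (c0 ^ 2) (by positivity)
  have hDW : 0 < D ^ (m + s + 1) := by positivity
  obtain ⟨e, heN, heo, hes⟩ := exists_idem N c hcN hDW
  have hDC : (D : ℂ) ≠ 0 := by exact_mod_cast hD.ne'
  set b : Fin n → ℂ := fun i => ∑ j, (e j : ℂ) * t j i with hb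
  set b' : Fin n → ℂ := fun i => if b i = 0 then 1 else b i with hb'
  have hbalg : ∀ i, IsAlgebraic ℚ (b i) := by
    intro i
    have h1 : ∀ j, IsAlgebraic ℚ ((e j : ℂ) * t j i) := by
      intro j
      have h2 : IsAlgebraic ℚ (e j : ℂ) := by
        have h3 : IsIntegral ℤ (e j : ℂ) := (e j).2
        exact (IsFractionRing.isAlgebraic_iff ℤ ℚ ℂ).1 h3.isAlgebraic
      exact h2.mul (hta j i)
    exact Finset.sum_induction _ (IsAlgebraic ℚ) (fun _ _ => IsAlgebraic.add) isAlgebraic_zero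
      fun j _ => h1 j
  have hb'alg : ∀ i, IsAlgebraic ℚ (b' i) := by
    intro i
    simp only [hb']
    split_ifs
    · exact isAlgebraic_one
    · exact hbalg i
  have hb'0 : ∀ i, b' i ≠ 0 := by
    intro i
    simp only [hb']
    split_ifs with h
    · exact one_ne_zero
    · exact h
  choose x a k hx0 hx1 hx2 ha huv hxa hxb using fun i => hS (b' i) (hb'alg i) (hb'0 i) D hD m
  have hkle : ∀ i, k i ≤ ∑ l, k l := fun i => Finset.single_le_sum (fun _ _ => Nat.zero_le _)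
    (Finset.mem_univ i)
  refine ⟨x, ∑ i, k i, fun i => ⟨hx0 i, ?_, ?_⟩, ?_⟩
  · obtain ⟨r, hr⟩ := Nat.exists_eq_add_of_le (hkle i)
    rw [hr, add_comm, pow_add, mul_assoc]
    exact IsIntegral.mul ((natInt D).pow r) (hx1 i)
  · obtain ⟨r, hr⟩ := Nat.exists_eq_add_of_le (hkle i)
    rw [hr, add_comm, pow_add, mul_assoc]
    exact IsIntegral.mul ((natInt D).pow r) (hx2 i)
  intro P hP hDP
  have hPp : P.IsPrime := hP.isPrime
  have h1P : (1 : integralClosure ℤ ℂ) ∉ P := fun h => hP.ne_top ((Ideal.eq_top_iff_one _).2 h)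
  have hDWP : ((D ^ (m + s + 1) : ℕ) : integralClosure ℤ ℂ) ∈ P := by
    push_cast
    exact Ideal.pow_mem_of_mem _ hDP _ (by omega)
  obtain ⟨j, hj⟩ : ∃ j, e j ∉ P := by
    by_contra hcon
    push Not at hcon
    apply h1P
    have h2 : ∑ j, e j - 1 ∈ P := Ideal.mem_of_dvd P hes hDWP
    have h3 : ∑ j, e j ∈ P := Ideal.sum_mem _ fun j _ => hcon j
    have h4 := P.sub_mem h3 h2
    simpa using h4
  refine ⟨j, fun hN => hj (Ideal.mem_of_dvd P (heN j) hN), ?_⟩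
  -- `κ = c2 e_j`
  set κ : integralClosure ℤ ℂ := (c2 : integralClosure ℤ ℂ) * e j with hκ
  have hc2P : (c2 : integralClosure ℤ ℂ) ∉ P := by
    intro h
    apply h1P
    have h2 : (c2 : ℤ) * Nat.gcdA c2 D + (D : ℤ) * Nat.gcdB c2 D = 1 := by
      rw [← Nat.gcd_eq_gcd_ab, hc2]
      rfl
    have h3 : (1 : integralClosure ℤ ℂ) = (c2 : integralClosure ℤ ℂ) * ((Nat.gcdA c2 D : ℤ) :
        integralClosure ℤ ℂ) + (D : integralClosure ℤ ℂ) * ((Nat.gcdB c2 D : ℤ) :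
        integralClosure ℤ ℂ) := by
      have := congrArg (fun z : ℤ => (z : integralClosure ℤ ℂ)) h2
      push_cast at this
      exact this.symm
    rw [h3]
    exact P.add_mem (Ideal.mul_mem_right _ _ h) (Ideal.mul_mem_right _ _ hDP)
  have hκP : κ ∉ P := fun h => (hPp.mem_or_mem h).elim hc2P hj
  have hρ : ∀ i, ∃ ρ : integralClosure ℤ ℂ,
      (κ : ℂ) * (b i / t j i - 1) = (D : ℂ) ^ (m + 1) * (ρ : ℂ) := by
    intro i
    obtain ⟨r1, hr1⟩ := idem_sub heo hes j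
    have hr : ∀ l, ∃ r : integralClosure ℤ ℂ, l ≠ j →
        e j * e l = ((D ^ (m + s + 1) : ℕ) : integralClosure ℤ ℂ) * r := by
      intro l
      by_cases hl : l = j
      · exact ⟨0, fun h => absurd hl h⟩
      · obtain ⟨r, hr⟩ := heo j l (Ne.symm hl)
        exact ⟨r, fun _ => hr⟩
    choose r hr using hr
    have hZ : IsIntegral ℤ ((c1' : ℂ) * ((c0 : ℂ) ^ 2 * (r1 : ℂ) +
        ∑ l ∈ univ.erase j, (r l : ℂ) * (((c0 : ℂ) * t l i) * ((c0 : ℂ) * (t j i)⁻¹)))) := by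
      refine (natInt c1').mul (IsIntegral.add (((natInt c0).pow 2).mul r1.2) ?_)
      exact IsIntegral.sum _ fun l _ => (r l).2.mul ((hd1 l i).mul (hd2 j i))
    refine ⟨⟨_, hZ⟩, ?_⟩
    have hr1' : (e j : ℂ) * ((e j : ℂ) - 1) = (D : ℂ) ^ (m + s + 1) * (r1 : ℂ) := by
      have := congrArg (fun z : integralClosure ℤ ℂ => (z : ℂ)) hr1
      simpa using this
    have hr' : ∀ l ∈ univ.erase j, (e j : ℂ) * (e l : ℂ) = (D : ℂ) ^ (m + s + 1) * (r l : ℂ) := by
      intro l hl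
      have := congrArg (fun z : integralClosure ℤ ℂ => (z : ℂ)) (hr l (Finset.ne_of_mem_erase hl))
      simpa using this
    have hcc : ((c1 : ℂ)) * (c2 : ℂ) = (c0 : ℂ) ^ 2 := by exact_mod_cast hc.symm
    have hDs : (D : ℂ) ^ s = (c1 : ℂ) * (c1' : ℂ) := by exact_mod_cast hc1
    have hti := ht j i
    have h5 : (e j : ℂ) * (b i / t j i - 1) = (e j : ℂ) * ((e j : ℂ) - 1) +
        ∑ l ∈ univ.erase j, (e j : ℂ) * (e l : ℂ) * (t l i * (t j i)⁻¹) := by
      simp only [hb]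
      rw [← Finset.add_sum_erase _ _ (Finset.mem_univ j), add_div, mul_div_assoc, div_self hti,
        Finset.sum_div, mul_sub, mul_add, Finset.mul_sum]
      have : ∑ l ∈ univ.erase j, (e j : ℂ) * ((e l : ℂ) * t l i / t j i) =
          ∑ l ∈ univ.erase j, (e j : ℂ) * (e l : ℂ) * (t l i * (t j i)⁻¹) :=
        Finset.sum_congr rfl fun l _ => by rw [div_eq_mul_inv]; ring
      rw [this]
      ring
    have h6 : ∑ l ∈ univ.erase j, (e j : ℂ) * (e l : ℂ) * (t l i * (t j i)⁻¹) =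
        (D : ℂ) ^ (m + s + 1) * ∑ l ∈ univ.erase j, (r l : ℂ) * (t l i * (t j i)⁻¹) := by
      rw [Finset.mul_sum]
      exact Finset.sum_congr rfl fun l hl => by rw [hr' l hl]; ring
    have h7 : ∑ l ∈ univ.erase j, (r l : ℂ) * (((c0 : ℂ) * t l i) * ((c0 : ℂ) * (t j i)⁻¹)) =
        (c0 : ℂ) ^ 2 * ∑ l ∈ univ.erase j, (r l : ℂ) * (t l i * (t j i)⁻¹) := by
      rw [Finset.mul_sum]
      exact Finset.sum_congr rfl fun l _ => by ring
    have hκC : (κ : ℂ) = (c2 : ℂ) * (e j : ℂ) := by simp [hκ]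
    have hDs0 : (D : ℂ) ^ s ≠ 0 := pow_ne_zero _ hDC
    apply mul_left_cancel₀ hDs0
    rw [hκC]
    change (D : ℂ) ^ s * ((c2 : ℂ) * (e j : ℂ) * (b i / t j i - 1)) = (D : ℂ) ^ s *
      ((D : ℂ) ^ (m + 1) * ((c1' : ℂ) * ((c0 : ℂ) ^ 2 * (r1 : ℂ) +
        ∑ l ∈ univ.erase j, (r l : ℂ) * (((c0 : ℂ) * t l i) * ((c0 : ℂ) * (t j i)⁻¹)))))
    rw [h7]
    have h8 : (D : ℂ) ^ s * ((c2 : ℂ) * (e j : ℂ) * (b i / t j i - 1)) =
        (c1' : ℂ) * ((c1 : ℂ) * (c2 : ℂ)) * ((e j : ℂ) * (b i / t j i - 1)) := by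
      rw [hDs]; ring
    rw [h8, h5, h6, hr1', hcc]
    have h9 : (D : ℂ) ^ (m + s + 1) = (D : ℂ) ^ s * (D : ℂ) ^ (m + 1) := by
      rw [← pow_add]; congr 1; ring
    rw [h9]
    ring
  choose ρ hρ using hρ
  set g : Fin n → integralClosure ℤ ℂ := fun i => κ + (D : integralClosure ℤ ℂ) ^ (m + 1) * ρ i
    with hg
  have hgC : ∀ i, (g i : ℂ) = (κ : ℂ) + (D : ℂ) ^ (m + 1) * (ρ i : ℂ) := fun i => by simp [hg]
  have hgy : ∀ i, (g i : ℂ) = (κ : ℂ) * (b i / t j i) := fun i => by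
    rw [hgC, ← hρ]; ring
  have hgP : ∀ i, g i ∉ P := by
    intro i h
    apply hκP
    have h2 : (D : integralClosure ℤ ℂ) ^ (m + 1) * ρ i ∈ P :=
      Ideal.mul_mem_right _ _ (Ideal.pow_mem_of_mem _ hDP _ (by omega))
    have h3 := P.sub_mem h h2
    simpa [hg] using h3
  have hbne : ∀ i, b i ≠ 0 := by
    intro i h
    apply hgP i
    have h2 : (g i : ℂ) = 0 := by rw [hgy, h]; simp
    have h3 : g i = 0 := by exact_mod_cast h2
    rw [h3]
    exact P.zero_mem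
  have hbb : ∀ i, b' i = b i := fun i => by simp only [hb', if_neg (hbne i)]
  set α : Fin n → integralClosure ℤ ℂ := fun i => ⟨a i, ha i⟩ with hα
  have hαP : ∀ i, α i ∉ P := by
    intro i h
    apply h1P
    obtain ⟨u, v, hu, hv, huv⟩ := huv i
    have h2 : (1 : integralClosure ℤ ℂ) = ⟨u, hu⟩ * α i + ⟨v, hv⟩ * (D : integralClosure ℤ ℂ) := by
      apply Subtype.ext
      simpa [hα] using huv.symm
    rw [h2]
    exact P.add_mem (Ideal.mul_mem_left _ _ h) (Ideal.mul_mem_left _ _ hDP)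
  refine ⟨κ * ((∏ i, α i) * ∏ i, g i), ?_, fun i => ?_⟩
  · intro h
    rcases hPp.mem_or_mem h with h | h
    · exact hκP h
    rcases hPp.mem_or_mem h with h | h
    · obtain ⟨i, _, hi⟩ := (Ideal.IsPrime.prod_mem_iff (hp := hPp)).1 h
      exact hαP i hi
    · obtain ⟨i, _, hi⟩ := (Ideal.IsPrime.prod_mem_iff (hp := hPp)).1 h
      exact hgP i hi
  have hti := ht j i
  have hbi := hbne i
  have hxi := hx0 i
  have hDm : (D : ℂ) ^ m ≠ 0 := pow_ne_zero _ hDC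
  have hσ := hxa i
  have hσ' := hxb i
  rw [hbb i] at hσ hσ'
  have hprodα : (∏ l, (α l : ℂ)) = a i * ∏ l ∈ univ.erase i, (α l : ℂ) := by
    rw [← Finset.mul_prod_erase _ _ (Finset.mem_univ i)]
  have hprodg : (∏ l, (g l : ℂ)) = (g i : ℂ) * ∏ l ∈ univ.erase i, (g l : ℂ) := by
    rw [← Finset.mul_prod_erase _ _ (Finset.mem_univ i)]
  have hcast : ((κ * ((∏ i, α i) * ∏ i, g i) : integralClosure ℤ ℂ) : ℂ) =
      (κ : ℂ) * ((∏ l, (α l : ℂ)) * ∏ l, (g l : ℂ)) := by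
    push_cast
    rfl
  rw [hcast]
  have hIα : IsIntegral ℤ (∏ l ∈ univ.erase i, (α l : ℂ)) := IsIntegral.prod _ fun l _ => (α l).2
  have hIg : IsIntegral ℤ (∏ l ∈ univ.erase i, (g l : ℂ)) := IsIntegral.prod _ fun l _ => (g l).2
  constructor
  · have h1 : (κ : ℂ) * ((∏ l, (α l : ℂ)) * ∏ l, (g l : ℂ)) * (x i / t j i - 1) / (D : ℂ) ^ m =
        ((∏ l ∈ univ.erase i, (α l : ℂ)) * ((g i : ℂ) * ∏ l ∈ univ.erase i, (g l : ℂ))) *
          ((a i * (x i / b i - 1) / (D : ℂ) ^ m) * (g i : ℂ) + (D : ℂ) * (ρ i : ℂ) * a i) := by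
      have h2 : (D : ℂ) * (ρ i : ℂ) = ((κ : ℂ) * (b i / t j i - 1)) / (D : ℂ) ^ m := by
        rw [hρ i, pow_succ]
        field_simp
      rw [hprodα, hprodg, h2]
      have h3 : (g i : ℂ) * ((a i * (x i / b i - 1) / (D : ℂ) ^ m) * (g i : ℂ) +
          ((κ : ℂ) * (b i / t j i - 1)) / (D : ℂ) ^ m * a i) =
          (g i : ℂ) * ((κ : ℂ) * a i * (x i / t j i - 1) / (D : ℂ) ^ m) := by
        congr 1
        rw [hgy i]
        field_simp
        ring
      calc _ = (∏ l ∈ univ.erase i, (α l : ℂ)) * (∏ l ∈ univ.erase i, (g l : ℂ)) *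
            ((g i : ℂ) * ((κ : ℂ) * a i * (x i / t j i - 1) / (D : ℂ) ^ m)) := by ring
        _ = (∏ l ∈ univ.erase i, (α l : ℂ)) * (∏ l ∈ univ.erase i, (g l : ℂ)) *
            ((g i : ℂ) * ((a i * (x i / b i - 1) / (D : ℂ) ^ m) * (g i : ℂ) +
          ((κ : ℂ) * (b i / t j i - 1)) / (D : ℂ) ^ m * a i)) := by rw [h3]
        _ = _ := by ring
    rw [h1]
    exact (hIα.mul ((g i).2.mul hIg)).mul ((hσ.mul (g i).2).add
      (((natInt D).mul (ρ i).2).mul (ha i)))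
  · have h1 : (κ : ℂ) * ((∏ l, (α l : ℂ)) * ∏ l, (g l : ℂ)) * (t j i / x i - 1) / (D : ℂ) ^ m =
        ((∏ l ∈ univ.erase i, (α l : ℂ)) * ((κ : ℂ) * ∏ l ∈ univ.erase i, (g l : ℂ))) *
          ((κ : ℂ) * (a i * (b i / x i - 1) / (D : ℂ) ^ m) - (D : ℂ) * (ρ i : ℂ) * a i) := by
      have h2 : (D : ℂ) * (ρ i : ℂ) = ((κ : ℂ) * (b i / t j i - 1)) / (D : ℂ) ^ m := by
        rw [hρ i, pow_succ]
        field_simp
      rw [hprodα, hprodg, h2]
      have h3 : (κ : ℂ) * (a i * (b i / x i - 1) / (D : ℂ) ^ m) -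
          ((κ : ℂ) * (b i / t j i - 1)) / (D : ℂ) ^ m * a i =
          (g i : ℂ) * a i * (t j i / x i - 1) / (D : ℂ) ^ m := by
        rw [hgy i]
        field_simp
        ring
      rw [h3]
      ring
    rw [h1]
    exact (hIα.mul (κ.2.mul hIg)).mul ((κ.2.mul hσ').sub
      (((natInt D).mul (ρ i).2).mul (ha i)))

end Vale.Agent.P002.R2.H524
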