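import Vale.Agent.P002.R2.H524.Near
import Vale.Agent.P002.R2.H955.Near1

/-!
# P002: (P) without hypothesis
-/

namespace Vale.Agent.P002.R2.H524

theorem nearS : NearS := fun b hb h0 D hD m => H955.exists_near b hb h0 D hD m

/-- **(P)** -/
theorem exists_near_family {q n : ℕ} (t : Fin q → Fin n → ℂ)
    (ht : ∀ j i, t j i ≠ 0) (hta : ∀ j i, IsAlgebraic ℚ (t j i))
    (N c : Fin q → integralClosure ℤ ℂ) (hcN : ∑ j, c j * N j = 1)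
    (D : ℕ) (hD : 0 < D) (m : ℕ) :
    ∃ (x : Fin n → ℂ) (k : ℕ),
      (∀ i, x i ≠ 0 ∧ IsIntegral ℤ ((D:ℂ)^k * x i) ∧ IsIntegral ℤ ((D:ℂ)^k * (x i)⁻¹)) ∧
      ∀ P : Ideal (integralClosure ℤ ℂ), P.IsMaximal → (D : integralClosure ℤ ℂ) ∈ P →
        ∃ j : Fin q, N j ∉ P ∧ ∃ a : integralClosure ℤ ℂ, a ∉ P ∧
          ∀ i, IsIntegral ℤ ((a:ℂ) * (x i / t j i - 1) / (D:ℂ)^m) ∧
            IsIntegral ℤ ((a:ℂ) * (t j i / x i - 1) / (D:ℂ)^m) :=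
  exists_near_family_of nearS t ht hta N c hcN D hD m

end Vale.Agent.P002.R2.H524
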