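import Vale.Agent.P002.R2.H524.Loc

/-!
# P002: the localization of the ring of all algebraic integers at a maximal ideal is a valuation
ring of rank one

* `val_or` (E1): `x / y` or `y / x` is integral at `P`.
* `root_mem`, `loc_closed` (E2): integrally closed.
* `mem_of_bdd` (E3): if all `d * z ^ k` are integral at `P`, so is `z`.
* `gauss` (E4): the lemma of Gauss.
-/

namespace Vale.Agent.P002.R2.H524

open Finset Vale.Agent.P002.R2

variable {P : Ideal (integralClosure ℤ ℂ)}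

/-- **(E1)** -/
theorem val_or (hP : P.IsPrime) {x y : ℂ} (hx : IsAlgebraic ℚ x) (hy : IsAlgebraic ℚ y)
    (hx0 : x ≠ 0) (hy0 : y ≠ 0) : IsIntegralAt P (x / y) ∨ IsIntegralAt P (y / x) := by
  obtain ⟨c, hc, hcx⟩ := exists_den hx
  obtain ⟨c', hc', hcy⟩ := exists_den hy
  have hc0 : (c : ℂ) ≠ 0 := by exact_mod_cast hc.ne'
  have hc0' : (c' : ℂ) ≠ 0 := by exact_mod_cast hc'.ne'
  have hα : IsIntegral ℤ ((c' : ℂ) * (c * x)) := (natInt c').mul hcx
  have hβ : IsIntegral ℤ ((c : ℂ) * (c' * y)) := (natInt c).mul hcy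
  obtain ⟨u, α, β, p, q, hu, h1, h2, h3⟩ := H955.exists_bezout ⟨_, hα⟩ ⟨_, hβ⟩ (by
    intro h
    have h4 : (c' : ℂ) * (c * x) = 0 := congrArg Subtype.val h
    exact mul_ne_zero hc0' (mul_ne_zero hc0 hx0) h4)
  have h1' : (c' : ℂ) * (c * x) = u * α := congrArg Subtype.val h1
  have h2' : (c : ℂ) * (c' * y) = u * β := congrArg Subtype.val h2
  have hu' : (u : ℂ) ≠ 0 := fun h => hu (Subtype.ext h)
  have hα0 : (α : ℂ) ≠ 0 := by
    intro h
    rw [h, mul_zero] at h1'
    exact mul_ne_zero hc0' (mul_ne_zero hc0 hx0) h1'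
  have hβ0 : (β : ℂ) ≠ 0 := by
    intro h
    rw [h, mul_zero] at h2'
    exact mul_ne_zero hc0 (mul_ne_zero hc0' hy0) h2'
  have hr : x / y = α / β := by
    rw [div_eq_div_iff hy0 hβ0]
    have h5 : (u : ℂ) * c * c' * (x * β) = u * c * c' * (α * y) := by
      have e1 : (u : ℂ) * c * c' * (x * β) = (c' * (c * x)) * (u * β) := by ring
      have e2 : (u : ℂ) * c * c' * (α * y) = (u * α) * (c * (c' * y)) := by ring
      rw [e1, e2, ← h1', ← h2']
    exact mul_left_cancel₀ (mul_ne_zero (mul_ne_zero hu' hc0) hc0') h5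
  by_cases hαP : α ∈ P
  · left
    refine ⟨β, fun hβP => ?_, ?_⟩
    · refine hP.ne_top ((Ideal.eq_top_iff_one P).2 ?_)
      rw [← h3]
      exact P.add_mem (P.mul_mem_left _ hαP) (P.mul_mem_left _ hβP)
    · rw [hr, mul_div_cancel₀ _ hβ0]
      exact α.2
  · right
    refine ⟨α, hαP, ?_⟩
    have h6 : y / x = β / α := by rw [← inv_div, hr, inv_div]
    rw [h6, mul_div_cancel₀ _ hα0]
    exact β.2

/-- **(E2)** a root of a monic polynomial with `P`-integral coefficients is `P`-integral -/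
theorem root_mem (hP : P.IsPrime) {p : Polynomial ℂ} (hp : p.Monic)
    (hc : ∀ i, IsIntegralAt P (p.coeff i)) {z : ℂ} (hz : p.eval z = 0) : IsIntegralAt P z := by
  obtain ⟨b, hb, h⟩ := common_den hP (fun i : Fin (p.natDegree + 1) => p.coeff i) fun i => hc i
  refine ⟨b, hb, ?_⟩
  have hq : ∀ i, IsIntegral ℤ ((p.scaleRoots (b : ℂ)).coeff i) := by
    intro i
    rw [Polynomial.coeff_scaleRoots]
    rcases lt_trichotomy i p.natDegree with hi | hi | hi
    · obtain ⟨e, he⟩ : ∃ e, p.natDegree - i = e + 1 := ⟨p.natDegree - i - 1, by omega⟩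
      rw [he]
      have h1 : p.coeff i * (b : ℂ) ^ (e + 1) = (b : ℂ) ^ e * (b * p.coeff i) := by ring
      rw [h1]
      exact (IsIntegral.pow b.2 e).mul (h ⟨i, by omega⟩)
    · rw [hi, hp.coeff_natDegree, one_mul]
      exact IsIntegral.pow b.2 _
    · rw [Polynomial.coeff_eq_zero_of_natDegree_lt hi, zero_mul]
      exact isIntegral_zero
  have hlift : p.scaleRoots (b : ℂ) ∈ Polynomial.lifts (algebraMap (integralClosure ℤ ℂ) ℂ) := by
    rw [Polynomial.lifts_iff_coeff_lifts]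
    intro i
    exact ⟨⟨_, hq i⟩, rfl⟩
  obtain ⟨q, hq1, -, hq2⟩ := Polynomial.lifts_and_natDegree_eq_and_monic hlift
    ((Polynomial.monic_scaleRoots_iff _).2 hp)
  have h2 : IsIntegral (integralClosure ℤ ℂ) ((b : ℂ) * z) := by
    refine ⟨q, hq2, ?_⟩
    rw [Polynomial.eval₂_eq_eval_map, hq1, Polynomial.scaleRoots_eval_mul, hz, mul_zero]
  exact isIntegral_trans _ h2

/-- **(E2)** -/
theorem loc_closed (hP : P.IsPrime) {z : ℂ} (hz : IsIntegral (loc P hP) z) : z ∈ loc P hP := by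
  obtain ⟨p, hp, h⟩ := hz
  refine root_mem hP (hp.map (algebraMap (loc P hP) ℂ)) (fun i => ?_) (z := z) ?_
  · rw [Polynomial.coeff_map]
    exact (p.coeff i).2
  · rwa [Polynomial.eval_map]

theorem inv_mem_of_notMem {z : integralClosure ℤ ℂ} (hz : z ∉ P) :
    IsIntegralAt P ((z : ℂ)⁻¹) := by
  have h0 : (z : ℂ) ≠ 0 := fun h => hz (by
    have : z = 0 := Subtype.ext h
    rw [this]
    exact P.zero_mem)
  exact ⟨z, hz, by rw [mul_inv_cancel₀ h0]; exact isIntegral_one⟩

/-- a nonzero algebraic integer divides a positive natural number -/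
theorem exists_nat_mul (d : integralClosure ℤ ℂ) (hd : d ≠ 0) :
    ∃ (D : ℕ) (e : integralClosure ℤ ℂ), 0 < D ∧ d * e = D := by
  have h1 : IsAlgebraic ℚ (d : ℂ)⁻¹ :=
    (((d.2.tower_top (A := ℚ)).isAlgebraic).inv)
  obtain ⟨D, hD, h⟩ := exists_den h1
  have h0 : (d : ℂ) ≠ 0 := fun h => hd (Subtype.ext h)
  refine ⟨D, ⟨_, h⟩, hD, Subtype.ext ?_⟩
  have h2 : ((d * ⟨(D : ℂ) * (d : ℂ)⁻¹, h⟩ : integralClosure ℤ ℂ) : ℂ) = d * (D * (d : ℂ)⁻¹) := rfl
  rw [h2]
  have h3 : (((D : integralClosure ℤ ℂ)) : ℂ) = (D : ℂ) := by push_cast; rfl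
  rw [h3]
  field_simp

/-- the valuation has rank one -/
theorem arch (hP : P.IsPrime) {w : integralClosure ℤ ℂ} (hw : w ∈ P) {d : ℂ}
    (hd : IsAlgebraic ℚ d) (hd0 : d ≠ 0) : ∃ k : ℕ, IsIntegralAt P ((w : ℂ) ^ k / d) := by
  obtain ⟨c, hc, hcd⟩ := exists_den hd
  have hc0 : (c : ℂ) ≠ 0 := by exact_mod_cast hc.ne'
  obtain ⟨D, e, hD, hde⟩ := exists_nat_mul ⟨_, hcd⟩ (by
    intro h
    have h4 : (c : ℂ) * d = 0 := congrArg Subtype.val h
    exact mul_ne_zero hc0 hd0 h4)
  have hde' : (c : ℂ) * d * e = D := by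
    have := congrArg Subtype.val hde
    have h3 : (((D : integralClosure ℤ ℂ)) : ℂ) = (D : ℂ) := by push_cast; rfl
    rw [← h3]
    exact this
  have hD0 : (D : ℂ) ≠ 0 := by exact_mod_cast hD.ne'
  have he0 : (e : ℂ) ≠ 0 := by
    intro h
    rw [h, mul_zero] at hde'
    exact hD0 hde'.symm
  obtain ⟨k, hk, y, hy⟩ := pow_idem (a := w) (Algebra.IsIntegral.isIntegral w) hD
  have hy' : (w : ℂ) ^ k * (1 - (w : ℂ) ^ k) = D * y := by
    have := congrArg Subtype.val hy
    have h3 : (((D : integralClosure ℤ ℂ)) : ℂ) = (D : ℂ) := by push_cast; rfl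
    rw [← h3]
    exact this
  refine ⟨k, 1 - w ^ k, fun h => ?_, ?_⟩
  · refine hP.ne_top ((Ideal.eq_top_iff_one P).2 ?_)
    have := P.add_mem h (P.pow_mem_of_mem hw k hk)
    rwa [sub_add_cancel] at this
  · have h5 : ((1 - w ^ k : integralClosure ℤ ℂ) : ℂ) * ((w : ℂ) ^ k / d) = c * e * y := by
      have h6 : ((1 - w ^ k : integralClosure ℤ ℂ) : ℂ) = 1 - (w : ℂ) ^ k := rfl
      rw [h6, ← mul_div_assoc, mul_comm (1 - (w : ℂ) ^ k), hy', ← hde']
      field_simp
    rw [h5]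
    exact ((natInt c).mul e.2).mul y.2

/-- **(E3)** -/
theorem mem_of_bdd (hP : P.IsPrime) {d z : ℂ} (hd : IsAlgebraic ℚ d) (hd0 : d ≠ 0)
    (hz : IsAlgebraic ℚ z) (h : ∀ k : ℕ, IsIntegralAt P (d * z ^ k)) : IsIntegralAt P z := by
  by_cases hz0 : z = 0
  · rw [hz0]
    exact (loc P hP).zero_mem
  rcases val_or hP hz isAlgebraic_one hz0 one_ne_zero with h1 | h1
  · rwa [div_one] at h1
  · -- `1 / z = w / b`
    obtain ⟨b, hb, hw⟩ := h1
    set w : integralClosure ℤ ℂ := ⟨_, hw⟩ with hwdef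
    have hwc : (w : ℂ) = b * (1 / z) := rfl
    have hb0 : (b : ℂ) ≠ 0 := fun h => hb (by
      have : b = 0 := Subtype.ext h
      rw [this]
      exact P.zero_mem)
    by_cases hwP : w ∈ P
    · obtain ⟨k, hk⟩ := arch hP hwP hd hd0
      -- `d z^(k+1) * (w^k/d) * w = b^(k+1)`
      exfalso
      obtain ⟨b1, hb1, h2⟩ := h (k + 1)
      obtain ⟨b2, hb2, h3⟩ := hk
      have h4 : ((b1 : ℂ) * (d * z ^ (k + 1))) * ((b2 : ℂ) * ((w : ℂ) ^ k / d)) * w =
          b1 * b2 * b ^ (k + 1) := by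
        rw [hwc, mul_pow, one_div, inv_pow]
        field_simp
        ring
      have h5 : (⟨_, h2⟩ * ⟨_, h3⟩ * w : integralClosure ℤ ℂ) = b1 * b2 * b ^ (k + 1) :=
        Subtype.ext h4
      have h6 : b1 * b2 * b ^ (k + 1) ∈ P := by
        rw [← h5]
        exact P.mul_mem_left _ hwP
      rcases hP.mem_or_mem h6 with h7 | h7
      · exact (hP.mem_or_mem h7).elim hb1 hb2
      · exact hb (hP.mem_of_pow_mem _ h7)
    · have h2 : z = b * (w : ℂ)⁻¹ := by
        rw [hwc]
        field_simp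
      rw [h2]
      exact (loc P hP).mul_mem (mem_loc_of_int hP b.2) (inv_mem_of_notMem hwP)

/-- among finitely many nonzero algebraic numbers one divides all the others at `P` -/
theorem exists_max (hP : P.IsPrime) {μ : Type*} (S : Finset μ) (hS : S.Nonempty) (a : μ → ℂ)
    (ha : ∀ i ∈ S, IsAlgebraic ℚ (a i)) (ha0 : ∀ i ∈ S, a i ≠ 0) :
    ∃ i ∈ S, ∀ j ∈ S, IsIntegralAt P (a j / a i) := by
  classical
  induction hS using Finset.Nonempty.cons_induction with
  | singleton i =>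
    refine ⟨i, Finset.mem_singleton_self i, fun j hj => ?_⟩
    rw [Finset.mem_singleton.1 hj, div_self (ha0 i (Finset.mem_singleton_self i))]
    exact (loc P hP).one_mem
  | cons i S hi hS ih =>
    obtain ⟨k, hk, h⟩ := ih (fun j hj => ha j (Finset.mem_cons_of_mem hj))
      (fun j hj => ha0 j (Finset.mem_cons_of_mem hj))
    have hi0 := ha0 i (Finset.mem_cons_self i S)
    have hk0 := ha0 k (Finset.mem_cons_of_mem hk)
    rcases val_or hP (ha i (Finset.mem_cons_self i S)) (ha k (Finset.mem_cons_of_mem hk)) hi0 hk0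
      with h1 | h1
    · refine ⟨k, Finset.mem_cons_of_mem hk, fun j hj => ?_⟩
      rcases Finset.mem_cons.1 hj with rfl | hj
      · exact h1
      · exact h j hj
    · refine ⟨i, Finset.mem_cons_self i S, fun j hj => ?_⟩
      rcases Finset.mem_cons.1 hj with rfl | hj
      · rw [div_self hi0]
        exact (loc P hP).one_mem
      · have h2 : a j / a i = (a j / a k) * (a k / a i) := by field_simp
        rw [h2]
        exact (loc P hP).mul_mem (h j hj) h1

/-- a polynomial with `P`-integral coefficients becomes integral after multiplication by an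
element outside `P` -/
theorem exists_lift (hP : P.IsPrime) {σ : Type*} (f : MvPolynomial σ ℂ)
    (hf : ∀ m, IsIntegralAt P (f.coeff m)) :
    ∃ (b : integralClosure ℤ ℂ) (F : MvPolynomial σ (integralClosure ℤ ℂ)), b ∉ P ∧
      ∀ m, ((F.coeff m : integralClosure ℤ ℂ) : ℂ) = b * f.coeff m := by
  classical
  obtain ⟨b, hb, h⟩ := common_den hP (fun m : f.support => f.coeff m) fun m => hf m
  have h' : ∀ m, IsIntegral ℤ ((b : ℂ) * f.coeff m) := by
    intro m
    by_cases hm : m ∈ f.support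
    · exact h ⟨m, hm⟩
    · rw [MvPolynomial.notMem_support_iff.1 hm, mul_zero]
      exact isIntegral_zero
  refine ⟨b, ∑ m ∈ f.support, MvPolynomial.monomial m ⟨_, h' m⟩, hb, fun m => ?_⟩
  rw [MvPolynomial.coeff_sum]
  simp only [MvPolynomial.coeff_monomial]
  rw [Finset.sum_ite_eq' f.support m]
  split_ifs with hm
  · rfl
  · rw [MvPolynomial.notMem_support_iff.1 hm, mul_zero]
    rfl

/-- **(E4)** the lemma of Gauss -/
theorem gauss (hP : P.IsPrime) {σ : Type*} {f g : MvPolynomial σ ℂ}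
    (hf : ∀ m, IsAlgebraic ℚ (f.coeff m)) (hfg : ∀ m, IsIntegralAt P ((f * g).coeff m))
    (hg : ∀ m, IsIntegralAt P (g.coeff m))
    (hc : ∃ m, g.coeff m ≠ 0 ∧ IsIntegralAt P (g.coeff m)⁻¹) (m : σ →₀ ℕ) :
    IsIntegralAt P (f.coeff m) := by
  classical
  by_cases hf0 : f.support.Nonempty
  swap
  · rw [Finset.not_nonempty_iff_eq_empty, MvPolynomial.support_eq_empty] at hf0
    rw [hf0, MvPolynomial.coeff_zero]
    exact (loc P hP).zero_mem
  obtain ⟨i, hi, hmax⟩ := exists_max hP f.support hf0 f.coeff (fun j _ => hf j)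
    (fun j hj => MvPolynomial.mem_support_iff.1 hj)
  set a : ℂ := f.coeff i with ha
  have ha0 : a ≠ 0 := MvPolynomial.mem_support_iff.1 hi
  -- `f = a f₁`, `f₁` has `P`-integral coefficients and the coefficient `1`
  set f₁ : MvPolynomial σ ℂ := MvPolynomial.C a⁻¹ * f with hf₁
  have hf₁c : ∀ j, f₁.coeff j = f.coeff j / a := by
    intro j
    rw [hf₁, MvPolynomial.coeff_C_mul, div_eq_inv_mul]
  have hf₁i : ∀ j, IsIntegralAt P (f₁.coeff j) := by
    intro j
    rw [hf₁c]
    by_cases hj : j ∈ f.support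
    · exact hmax j hj
    · rw [MvPolynomial.notMem_support_iff.1 hj, zero_div]
      exact (loc P hP).zero_mem
  obtain ⟨b, F, hb, hF⟩ := exists_lift hP f₁ hf₁i
  obtain ⟨c, G, hc', hG⟩ := exists_lift hP g hg
  have hdom : IsDomain (integralClosure ℤ ℂ ⧸ P) := Ideal.Quotient.isDomain P
  have hF0 : MvPolynomial.map (Ideal.Quotient.mk P) F ≠ 0 := by
    intro h
    have h1 := congrArg (MvPolynomial.coeff i) h
    rw [MvPolynomial.coeff_map, MvPolynomial.coeff_zero, Ideal.Quotient.eq_zero_iff_mem] at h1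
    have h2 : F.coeff i = b := Subtype.ext (by
      rw [hF, hf₁c, ← ha, div_self ha0, mul_one])
    rw [h2] at h1
    exact hb h1
  have hG0 : MvPolynomial.map (Ideal.Quotient.mk P) G ≠ 0 := by
    intro h
    obtain ⟨j, hj0, e, he, hje⟩ := hc
    have h1 := congrArg (MvPolynomial.coeff j) h
    rw [MvPolynomial.coeff_map, MvPolynomial.coeff_zero, Ideal.Quotient.eq_zero_iff_mem] at h1
    have h2 : (G.coeff j * ⟨_, hje⟩ : integralClosure ℤ ℂ) = c * e := by
      apply Subtype.ext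
      change ((G.coeff j : integralClosure ℤ ℂ) : ℂ) * ((e : ℂ) * (g.coeff j)⁻¹) = c * e
      rw [hG]
      field_simp
    have h3 : c * e ∈ P := by
      rw [← h2]
      exact P.mul_mem_right _ h1
    exact (hP.mem_or_mem h3).elim hc' he
  have hFG : MvPolynomial.map (Ideal.Quotient.mk P) (F * G) ≠ 0 := by
    rw [map_mul]
    exact mul_ne_zero hF0 hG0
  obtain ⟨l, hl⟩ : ∃ l, (F * G).coeff l ∉ P := by
    by_contra hcon
    push Not at hcon
    apply hFG
    ext l
    rw [MvPolynomial.coeff_map, MvPolynomial.coeff_zero, Ideal.Quotient.eq_zero_iff_mem]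
    exact hcon l
  have hl' : (((F * G).coeff l : integralClosure ℤ ℂ) : ℂ) = b * c * ((f * g).coeff l / a) := by
    have h1 : MvPolynomial.map (algebraMap (integralClosure ℤ ℂ) ℂ) F = MvPolynomial.C (b : ℂ) * f₁ := by
      ext j
      rw [MvPolynomial.coeff_map, MvPolynomial.coeff_C_mul]
      exact hF j
    have h2 : MvPolynomial.map (algebraMap (integralClosure ℤ ℂ) ℂ) G = MvPolynomial.C (c : ℂ) * g := by
      ext j
      rw [MvPolynomial.coeff_map, MvPolynomial.coeff_C_mul]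
      exact hG j
    have h3 : (((F * G).coeff l : integralClosure ℤ ℂ) : ℂ) =
        (MvPolynomial.map (algebraMap (integralClosure ℤ ℂ) ℂ) (F * G)).coeff l := by
      rw [MvPolynomial.coeff_map]
      rfl
    rw [h3, map_mul, h1, h2, hf₁]
    have h4 : MvPolynomial.C (b : ℂ) * (MvPolynomial.C a⁻¹ * f) * (MvPolynomial.C (c : ℂ) * g) =
        MvPolynomial.C ((b : ℂ) * c * a⁻¹) * (f * g) := by
      rw [map_mul, map_mul]
      ring
    rw [h4, MvPolynomial.coeff_C_mul]
    ring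
  have haP : IsIntegralAt P a := by
    have hne : (((F * G).coeff l : integralClosure ℤ ℂ) : ℂ) ≠ 0 := fun h => hl (by
      have h5 : (F * G).coeff l = 0 := Subtype.ext h
      rw [h5]
      exact P.zero_mem)
    have h6 : a = b * c * (f * g).coeff l * (((F * G).coeff l : integralClosure ℤ ℂ) : ℂ)⁻¹ := by
      rw [eq_mul_inv_iff_mul_eq₀ hne, hl']
      field_simp
    rw [h6]
    exact (loc P hP).mul_mem ((loc P hP).mul_mem ((loc P hP).mul_mem (mem_loc_of_int hP b.2)
      (mem_loc_of_int hP c.2)) (hfg l)) (inv_mem_of_notMem hl)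
  have h7 : f.coeff m = a * f₁.coeff m := by
    rw [hf₁c]
    field_simp
  rw [h7]
  exact (loc P hP).mul_mem haP (hf₁i m)

end Vale.Agent.P002.R2.H524
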